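import Crest.Agent.Helper15.S0010.JointAS
import Crest.Agent.Helper91.S0010.J1
import Crest.Agent.Helper91.S0010.FTBridge
import Crest.Agent.Helper88.S0010.LineTh

/-!
# S0010 (row 9): the chain to (E)

`lineData_lift`: helper88's representative map `lift Θ` of a compatible `Θ` satisfies helper19's
`LineData` (T1–T4 from helper88's `Lift.lean`, the line lemma from helper91's `J1.lineTh`,
partner / non-perfectness as hypotheses).

`E`: under the frozen hypotheses of S0010, a compatible `Θ` is induced by a ring homomorphism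
`α : K →+* L` up to a nonzero scalar:  `Θ [u] = c • [α u]`.
(`lineData_lift` + `LineData.exists_ringHom` (JointAS) + helper88's `exists_cls_eq_smul`;
the field-theoretic inputs from helper91's `FTBridge`.)
-/

set_option autoImplicit false

open Crest.NumberTheoryR.MilnorK

namespace Crest.Agent.Helper15.S0010

open Crest.Agent.Helper19.S0010

section

variable {p : ℕ} [Fact p.Prime] {K L : Type*} [Field K] [Field L] [CharP K p] [CharP L p]

/-- helper19's `PRel` (`a = e * b`, `0 ≠ e ∈ F^p`) is helper88's `PRel` (`a = e ^ p * b`,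
`e ≠ 0`). -/
theorem prel_iff_prel88 {F : Type*} [Field F] [CharP F p] {a b : F} :
    PRel p a b ↔ Crest.Agent.Helper88.S0010.PRel p a b :=
  Crest.Agent.Helper88.S0010.prel_iff_pPow.symm

/-- helper88's `lift Θ` satisfies helper19's `LineData`. -/
theorem lineData_lift (Θ : KOne K p ≃ₗ[ZMod p] KOne L p) (hΘ : IsCompatible Θ)
    (hinf : (pPow K p : Set K).Infinite)
    (hpart : ∀ x : L, ∃ y : L, y ∉ pAdj p x) (hnp : ∃ x : L, x ∉ pPow L p) :
    LineData p (Crest.Agent.Helper88.S0010.lift Θ) where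
  ne_zero := fun u hu => Crest.Agent.Helper88.S0010.lift_ne_zero Θ hu
  mul := fun u v hu hv => prel_iff_prel88.2 (Crest.Agent.Helper88.S0010.lift_mul Θ hu hv)
  pow_iff := fun u hu => Crest.Agent.Helper88.S0010.lift_mem_pPow_iff Θ hu
  surj := fun y hy => by
    obtain ⟨g, hg, h⟩ := Crest.Agent.Helper88.S0010.lift_surj Θ hy
    exact ⟨g, hg, prel_iff_prel88.2 h⟩
  partner := fun x _ => hpart x
  nonperfect := hnp
  line := fun f g hf hg hind => by
    obtain ⟨m, hm0, hmp, P, Q, lam, -, -, -, -, -, -, hlam, -, hrel⟩ :=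
      Crest.Agent.Helper91.S0010.J1.lineTh Θ hΘ hinf hf hg hind
    exact ⟨m, hm0, hmp, P, Q, lam, hlam, fun c hc => ⟨(hrel c hc).1, (hrel c hc).2.1⟩,
      (hrel 0 (zero_mem _)).2.2⟩

/-- (E) from `LineData` for `lift Θ`. -/
theorem exists_ringHom_of_lineData_lift (Θ : KOne K p ≃ₗ[ZMod p] KOne L p)
    (h : LineData p (Crest.Agent.Helper88.S0010.lift Θ)) :
    ∃ α : K →+* L, ∃ c : ZMod p, c ≠ 0 ∧
      ∀ u : Kˣ, Θ (cls K p u) = c • cls L p (Units.map α.toMonoidHom u) := by
  obtain ⟨α, m, hm0, hmp, hα⟩ := LineData.exists_ringHom h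
  exact Crest.Agent.Helper88.S0010.exists_cls_eq_smul Θ α m hm0 hmp
    (fun u hu => prel_iff_prel88.1 (hα u hu))

end

/-- **(E)**: under the frozen hypotheses of S0010, a compatible `Θ` is induced, up to a nonzero
scalar, by a ring homomorphism `K →+* L`. -/
theorem E {p : ℕ} [Fact p.Prime]
    {K L : Type*} [Field K] [Field L] [CharP K p] [CharP L p] (k : Subfield K) (l : Subfield L)
    [IsAlgClosed k] [IsAlgClosed l]
    (hK : ∃ s : Finset K, Subfield.closure ((k : Set K) ∪ (s : Set K)) = ⊤)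
    (hL : ∃ s : Finset L, Subfield.closure ((l : Set L) ∪ (s : Set L)) = ⊤)
    (hK2 : 2 ≤ Algebra.trdeg k K) (hL2 : 2 ≤ Algebra.trdeg l L)
    (Θ : KOne K p ≃ₗ[ZMod p] KOne L p) (hΘ : IsCompatible Θ) :
    ∃ α : K →+* L, ∃ c : ZMod p, c ≠ 0 ∧
      ∀ u : Kˣ, Θ (cls K p u) = c • cls L p (Units.map α.toMonoidHom u) :=
  exists_ringHom_of_lineData_lift Θ
    (lineData_lift Θ hΘ (Crest.Agent.Helper91.S0010.pPow_infinite (p := p) k)
      (fun x => Crest.Agent.Helper91.S0010.exists_not_mem_pAdj (p := p) l hL hL2 x)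
      (Crest.Agent.Helper91.S0010.exists_not_mem_pPow (p := p) l hL hL2))

end Crest.Agent.Helper15.S0010
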