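import Crest.Agent.Helper19.S0010.ASBasic

/-!
# S0010 — joint lemmas between the AS1 output (`NormLine`) and the AS-core tracks

`NormLine p s` (helper19's `ASBasic`) carries the line lemma at `m = 1` in its weakest shape
(only `lam c ∈ L^p` and the three relations).  The AS-core tracks T2/T3/T4 ask for more
(`lam 0 = 0`, `lam 1 = 1`, injectivity of `lam` on `K^p`, `P ∈ L^p(s f)`, `P ~ s f`, ...).
`NormLine.line_strong` derives all of these from `NormLine` alone, so every track can bridge to the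
AS1 output in a few lines.
-/

set_option autoImplicit false

namespace Crest.Agent.Helper15.S0010

open Crest.Agent.Helper19.S0010

variable {K L : Type*} [Field K] [Field L] {p : ℕ} [Fact p.Prime] [CharP K p] [CharP L p]

/-- The class map is injective: `s u ~ s v → u ~ v` (from `mul` and `pow_iff`). -/
theorem NormLine.prel_of_prel {s : K → L} (h : NormLine p s) {u v : K} (hu : u ≠ 0) (hv : v ≠ 0)
    (huv : PRel p (s u) (s v)) : PRel p u v := by
  have hd : u / v ≠ 0 := div_ne_zero hu hv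
  have h1 : PRel p (s u) (s (u / v) * s v) := by
    have := h.mul (u / v) v hd hv
    rwa [div_mul_cancel₀ u hv] at this
  -- `s (u / v) * s v ~ s v`, hence `s (u / v) ∈ L^p`
  obtain ⟨e, he, he0, hE⟩ := (h1.symm.trans huv)
  have hsv : s v ≠ 0 := h.ne_zero v hv
  have h2 : s (u / v) = e := mul_right_cancel₀ hsv hE
  have h3 : u / v ∈ pPow K p := (h.pow_iff (u / v) hd).1 (h2 ▸ he)
  exact ⟨u / v, h3, hd, (div_mul_cancel₀ u hv).symm⟩

/-- `f ∉ K^p`, `c, c' ∈ K^p`, `f + c ~ f + c'`  ⟹  `c = c'`. -/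
theorem eq_of_prel_add {f c c' : K} (hf : f ∉ pPow K p) (hc : c ∈ pPow K p)
    (hc' : c' ∈ pPow K p) (h : PRel p (f + c) (f + c')) : c = c' := by
  obtain ⟨e, he, _, hE⟩ := h
  by_cases h1 : e = 1
  · rw [h1, one_mul] at hE
    exact add_left_cancel hE
  · exfalso
    apply hf
    have h2 : f * (1 - e) = e * c' - c := by linear_combination hE
    have h3 : (1 - e) ≠ 0 := sub_ne_zero.2 (Ne.symm h1)
    have h4 : f = (e * c' - c) / (1 - e) := by
      rw [eq_div_iff h3, h2]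
    rw [h4]
    exact (pPow K p).div_mem ((pPow K p).sub_mem ((pPow K p).mul_mem he hc') hc)
      ((pPow K p).sub_mem (pPow K p).one_mem he)

theorem add_ne_zero_of_notMem {f c : K} (hf : f ∉ pPow K p) (hc : c ∈ pPow K p) : f + c ≠ 0 := by
  intro h
  apply hf
  have : f = -c := by linear_combination h
  rw [this]
  exact (pPow K p).neg_mem hc

theorem sub_ne_zero_of_notMem {g c : K} (hg : g ∉ pPow K p) (hc : c ∈ pPow K p) : g - c ≠ 0 := by
  rw [sub_eq_add_neg]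
  exact add_ne_zero_of_notMem hg ((pPow K p).neg_mem hc)

/-- **Strong form of the normalised line lemma**, derived from `NormLine` only. -/
theorem NormLine.line_strong {s : K → L} (h : NormLine p s) {f g : K} (hf : f ≠ 0) (hg : g ≠ 0)
    (hfg : PIndep p (s f) (s g)) :
    ∃ (P Q : L) (lam : K → L),
      PRel p (s f) P ∧ PRel p (s g) Q ∧
      P ∈ pAdj p (s f) ∧ Q ∈ pAdj p (s g) ∧ P ∉ pPow L p ∧ Q ∉ pPow L p ∧
      (∀ c ∈ pPow K p, lam c ∈ pPow L p) ∧ lam 0 = 0 ∧ lam 1 = 1 ∧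
      Set.InjOn lam (pPow K p : Set K) ∧ (∀ c ∈ pPow K p, lam c = 0 → c = 0) ∧
      (∀ c ∈ pPow K p, PRel p (s (f + c)) (P + lam c) ∧ PRel p (s (g - c)) (Q - lam c)) ∧
      PRel p (s (f + g)) (P + Q) := by
  obtain ⟨P0, Q0, lam0, hlam0, hline, hsum⟩ := h.line f g hf hg hfg
  have hsf : s f ∉ pPow L p := hfg.1
  have hsg : s g ∉ pPow L p := fun hmem => hfg.2 (pPow_le_pAdj p (s f) hmem)
  have hfK : f ∉ pPow K p := fun hmem => hsf ((h.pow_iff f hf).2 hmem)
  have hgK : g ∉ pPow K p := fun hmem => hsg ((h.pow_iff g hg).2 hmem)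
  have h0K : (0 : K) ∈ pPow K p := (pPow K p).zero_mem
  have h1K : (1 : K) ∈ pPow K p := (pPow K p).one_mem
  -- first normalisation: `lam1 0 = 0`
  set a0 : L := lam0 0 with ha0
  have ha0mem : a0 ∈ pPow L p := hlam0 0 h0K
  have hP1 : PRel p (s f) (P0 + a0) := by
    have := (hline 0 h0K).1
    rwa [add_zero] at this
  have hQ1 : PRel p (s g) (Q0 - a0) := by
    have := (hline 0 h0K).2
    rwa [sub_zero] at this
  -- injectivity of `lam0` on `K^p`
  have hinj0 : ∀ c ∈ pPow K p, ∀ c' ∈ pPow K p, lam0 c = lam0 c' → c = c' := by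
    intro c hc c' hc' hcc
    have h1 : PRel p (s (f + c)) (s (f + c')) := by
      have hA := (hline c hc).1
      have hB := (hline c' hc').1
      rw [hcc] at hA
      exact hA.trans hB.symm
    exact eq_of_prel_add hfK hc hc'
      (NormLine.prel_of_prel h (add_ne_zero_of_notMem hfK hc) (add_ne_zero_of_notMem hfK hc') h1)
  set ℓ : L := lam0 1 - a0 with hℓ
  have hℓmem : ℓ ∈ pPow L p := (pPow L p).sub_mem (hlam0 1 h1K) ha0mem
  have hℓ0 : ℓ ≠ 0 := by
    intro h0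
    have : lam0 1 = lam0 0 := by rw [← ha0]; exact sub_eq_zero.1 h0
    exact one_ne_zero (hinj0 1 h1K 0 h0K this)
  have hℓinv : ℓ⁻¹ ∈ pPow L p := (pPow L p).inv_mem hℓmem
  have hℓinv0 : ℓ⁻¹ ≠ 0 := inv_ne_zero hℓ0
  -- the normalised data
  refine ⟨ℓ⁻¹ * (P0 + a0), ℓ⁻¹ * (Q0 - a0), fun c => ℓ⁻¹ * (lam0 c - a0), ?_, ?_, ?_, ?_, ?_, ?_,
    ?_, ?_, ?_, ?_, ?_, ?_, ?_⟩
  · exact hP1.trans (prel_self_mul hℓinv hℓinv0 _)
  · exact hQ1.trans (prel_self_mul hℓinv hℓinv0 _)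
  · exact ((hP1.trans (prel_self_mul hℓinv hℓinv0 _)).symm.mem_pAdj_iff (s f)).2
      (self_mem_pAdj p (s f))
  · exact ((hQ1.trans (prel_self_mul hℓinv hℓinv0 _)).symm.mem_pAdj_iff (s g)).2
      (self_mem_pAdj p (s g))
  · intro hmem
    exact hsf ((hP1.trans (prel_self_mul hℓinv hℓinv0 _)).mem_pPow_iff.2 hmem)
  · intro hmem
    exact hsg ((hQ1.trans (prel_self_mul hℓinv hℓinv0 _)).mem_pPow_iff.2 hmem)
  · intro c hc
    exact (pPow L p).mul_mem hℓinv ((pPow L p).sub_mem (hlam0 c hc) ha0mem)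
  · show ℓ⁻¹ * (lam0 0 - a0) = 0
    rw [← ha0, sub_self, mul_zero]
  · show ℓ⁻¹ * (lam0 1 - a0) = 1
    rw [← hℓ, inv_mul_cancel₀ hℓ0]
  · intro c hc c' hc' hcc
    have hcc' : ℓ⁻¹ * (lam0 c - a0) = ℓ⁻¹ * (lam0 c' - a0) := hcc
    have := mul_left_cancel₀ hℓinv0 hcc'
    exact hinj0 c hc c' hc' (sub_left_injective this)
  · intro c hc hc0
    have hc0' : ℓ⁻¹ * (lam0 c - a0) = 0 := hc0
    have h1 : lam0 c - a0 = 0 := by
      rcases mul_eq_zero.1 hc0' with h2 | h2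
      · exact absurd h2 hℓinv0
      · exact h2
    exact hinj0 c hc 0 h0K (by rw [← ha0]; exact sub_eq_zero.1 h1)
  · intro c hc
    constructor
    · have e1 : ℓ⁻¹ * (P0 + a0) + ℓ⁻¹ * (lam0 c - a0) = ℓ⁻¹ * (P0 + lam0 c) := by ring
      rw [e1]
      exact (hline c hc).1.trans (prel_self_mul hℓinv hℓinv0 _)
    · have e1 : ℓ⁻¹ * (Q0 - a0) - ℓ⁻¹ * (lam0 c - a0) = ℓ⁻¹ * (Q0 - lam0 c) := by ring
      rw [e1]
      exact (hline c hc).2.trans (prel_self_mul hℓinv hℓinv0 _)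
  · have e1 : ℓ⁻¹ * (P0 + a0) + ℓ⁻¹ * (Q0 - a0) = ℓ⁻¹ * (P0 + Q0) := by ring
    rw [e1]
    exact hsum.trans (prel_self_mul hℓinv hℓinv0 _)

end Crest.Agent.Helper15.S0010
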