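import Crest.Agent.Helper15.S0010.Joint
import Crest.Agent.Helper50.S0010.Assembly
import Crest.Agent.Helper4.S0010.AS1

/-!
# S0010 — the AS chain closed in helper19's Spec shapes

* `NormLine.exists_ringHom`  (= `Spec.NormLine.exists_ringHom`): via helper50's abstract assembly
  (`Helper50.S0010.AssemblyData.exists_ringHom`) and `NormLine.line_strong`.
* `LineData.exists_ringHom`  (= `Spec.LineData.exists_ringHom`, joint J2): via helper4's AS1
  (`Helper4.S0010.lineData_exists_normLine`).
-/

set_option autoImplicit false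

namespace Crest.Agent.Helper15.S0010

open Crest.Agent.Helper19.S0010

variable {K L : Type*} [Field K] [Field L] {p : ℕ} [Fact p.Prime] [CharP K p] [CharP L p]

/-- helper50's relation over `L^p` is helper19's `PRel`. -/
theorem rel50_iff (a b : L) :
    Crest.Agent.Helper50.S0010.Rel (pPow L p) a b ↔ PRel p a b := Iff.rfl

/-- helper50's `adj` over `L^p` is helper19's `pAdj`. -/
theorem adj50_eq (x : L) : Crest.Agent.Helper50.S0010.adj (pPow L p) x = pAdj p x := rfl

/-- For a generic pair, `f + g ≠ 0`. -/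
theorem NormLine.add_ne_zero {s : K → L} (h : NormLine p s) {f g : K} (hf : f ≠ 0) (_hg : g ≠ 0)
    (hfg : PIndep p (s f) (s g)) : f + g ≠ 0 := by
  intro h0
  apply hfg.2
  have hg' : g = (-1) * f := by linear_combination h0
  have hm1 : (-1 : K) ≠ 0 := neg_ne_zero.2 one_ne_zero
  have h1 : PRel p (s g) (s (-1) * s f) := by
    have := h.mul (-1) f hm1 hf
    rwa [← hg'] at this
  have h2 : s (-1) ∈ pPow L p :=
    (h.pow_iff (-1) hm1).2 ((pPow K p).neg_mem (pPow K p).one_mem)
  exact (h1.mem_pAdj_iff (s f)).2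
    ((pAdj p (s f)).mul_mem (pPow_le_pAdj p (s f) h2) (self_mem_pAdj p (s f)))

open Classical in
/-- Extension by zero at `0`. -/
noncomputable def zext (s : K → L) (u : K) : L := if u = 0 then 0 else s u

theorem zext_zero (s : K → L) : zext s 0 = 0 := by simp [zext]

theorem zext_of_ne (s : K → L) {u : K} (hu : u ≠ 0) : zext s u = s u := by simp [zext, hu]

/-- `NormLine` only looks at the values at nonzero arguments. -/
theorem NormLine.zext {s : K → L} (h : NormLine p s) : NormLine p (zext s) := by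
  refine
    { ne_zero := fun u hu => by rw [zext_of_ne s hu]; exact h.ne_zero u hu
      mul := fun u v hu hv => by
        rw [zext_of_ne s hu, zext_of_ne s hv, zext_of_ne s (mul_ne_zero hu hv)]
        exact h.mul u v hu hv
      pow_iff := fun u hu => by rw [zext_of_ne s hu]; exact h.pow_iff u hu
      surj := fun y hy => by
        obtain ⟨g, hg, hrel⟩ := h.surj y hy
        exact ⟨g, hg, by rw [zext_of_ne s hg]; exact hrel⟩
      partner := h.partner
      nonperfect := h.nonperfect
      line := ?_ }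
  intro f g hf hg hfg
  rw [zext_of_ne s hf, zext_of_ne s hg] at hfg
  have hfK : f ∉ pPow K p := fun hmem => hfg.1 ((h.pow_iff f hf).2 hmem)
  have hgK : g ∉ pPow K p := fun hmem =>
    hfg.2 (pPow_le_pAdj p (s f) ((h.pow_iff g hg).2 hmem))
  obtain ⟨P, Q, lam, hlam, hline, hsum⟩ := h.line f g hf hg hfg
  refine ⟨P, Q, lam, hlam, fun c hc => ?_, ?_⟩
  · rw [zext_of_ne s (add_ne_zero_of_notMem hfK hc), zext_of_ne s (sub_ne_zero_of_notMem hgK hc)]
    exact hline c hc
  · rw [zext_of_ne s (NormLine.add_ne_zero h hf hg hfg)]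
    exact hsum

/-- `NormLine` (plus `s 0 = 0`) gives helper50's `AssemblyData` for `K^p`, `L^p`. -/
theorem NormLine.assemblyData {s : K → L} (h : NormLine p s) (hs0 : s 0 = 0) :
    Crest.Agent.Helper50.S0010.AssemblyData (pPow K p) (pPow L p) s := by
  refine
    { th_zero := fun f => ⟨fun hf => by_contra fun hf0 => h.ne_zero f hf0 hf,
        fun hf => by rw [hf, hs0]⟩
      th_mul := fun f g => ?_
      th_mem := fun f => ?_
      th_surj := fun z => ?_
      exch := fun x w hw hw' => exchange p hw hw'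
      partner := h.partner
      nontriv := h.nonperfect
      line := fun f g hf hg => ?_ }
  · by_cases hf : f = 0
    · rw [hf, zero_mul, hs0, zero_mul]; exact PRel.refl 0
    by_cases hg : g = 0
    · rw [hg, mul_zero, hs0, mul_zero]; exact PRel.refl 0
    exact h.mul f g hf hg
  · by_cases hf : f = 0
    · rw [hf, hs0]
      exact ⟨fun _ => (pPow K p).zero_mem, fun _ => (pPow L p).zero_mem⟩
    exact h.pow_iff f hf
  · by_cases hz : z = 0
    · exact ⟨0, by rw [hs0, hz]; exact PRel.refl 0⟩
    obtain ⟨g, -, hrel⟩ := h.surj z hz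
    exact ⟨g, hrel⟩
  · have hf0 : f ≠ 0 := by
      rintro rfl
      exact hf (by rw [hs0]; exact (pPow L p).zero_mem)
    have hg0 : g ≠ 0 := by
      rintro rfl
      exact hg (by rw [hs0]; exact (pAdj p (s f)).zero_mem)
    obtain ⟨P, Q, lam, -, -, -, -, -, -, hlam, hlam0, -, -, hlamz, hline, hsum⟩ :=
      NormLine.line_strong h hf0 hg0 ⟨hf, hg⟩
    exact ⟨P, Q, lam, hlam0, fun c hc => ⟨hlam c hc, hlamz c hc⟩, fun c hc => (hline c hc).1,
      fun c hc => (hline c hc).2, hsum⟩

/-- **AS-core** in helper19's Spec shape (`Spec.NormLine.exists_ringHom`). -/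
theorem NormLine.exists_ringHom {s : K → L} (h : NormLine p s) :
    ∃ α : K →+* L, ∀ u : K, u ≠ 0 → PRel p (s u) (α u) := by
  obtain ⟨α, hα⟩ := (NormLine.assemblyData (NormLine.zext h) (zext_zero s)).exists_ringHom
  refine ⟨α, fun u hu => ?_⟩
  have := hα u
  rwa [zext_of_ne s hu] at this

/-- **Joint J2** in helper19's Spec shape (`Spec.LineData.exists_ringHom`). -/
theorem LineData.exists_ringHom {t : K → L} (h : LineData p t) :
    ∃ (α : K →+* L) (m : ℕ), 0 < m ∧ m < p ∧ ∀ u : K, u ≠ 0 → PRel p (t u) (α u ^ m) := by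
  obtain ⟨m, m', hm, hmp, hmm, hN⟩ := Crest.Agent.Helper4.S0010.lineData_exists_normLine h
  obtain ⟨α, hα⟩ := NormLine.exists_ringHom hN
  refine ⟨α, m, hm, hmp, fun u hu => ?_⟩
  have h1 : PRel p ((t u ^ m') ^ m) (α u ^ m) := (hα u hu).pow m
  have hmm' : m' * m ≡ 1 [MOD p] := by rw [mul_comm]; exact hmm
  have h2 : PRel p (t u ^ (m' * m)) (t u) := prel_pow_of_modEq_one hmm' (h.ne_zero u hu)
  rw [← pow_mul] at h1
  exact h2.symm.trans h1

end Crest.Agent.Helper15.S0010
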